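import Vale.Agent.P335.Chain
import Mathlib.Algebra.Polynomial.Eval.Defs

namespace Vale.Agent.Results.P335.KTV

open Vale.Agent.P335

/-- The Kannan-Tetali-Vempala conjecture for simple graphs, with the explicit bound `n ^ 6`. -/
theorem result :
    (∃ p : Polynomial ℕ, ∀ n : ℕ, 4 ≤ n → ∀ d : Fin n → ℕ, Nonempty (Omega n d) →
      tmix n d ≤ ((p.eval n : ℕ) : ℕ∞)) ∧
    (∀ n : ℕ, 4 ≤ n → ∀ d : Fin n → ℕ, ∀ t : ℕ, n ^ 6 ≤ t → ∀ G : Omega n d,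
      tv n d t G ≤ 1 / 4) :=
  ⟨⟨Polynomial.X ^ 6, fun n hn d _ => by simpa using tmix_le (d := d) hn⟩,
    fun _ hn _ t ht G => tv_le hn t ht G⟩

end Vale.Agent.Results.P335.KTV
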